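import Mathlib

namespace Vale.Agent.P061

open Classical in
noncomputable def cut {V E : Type*} [Fintype E] (ends : E → Sym2 V) (S : Finset V) : Finset E :=
  Finset.univ.filter fun e => ∃ x y, x ∈ S ∧ y ∉ S ∧ ends e = s(x, y)

def IsSpanningTree {V E : Type*} [Fintype V] (ends : E → Sym2 V) (T : Finset E) : Prop :=
  (SimpleGraph.fromEdgeSet (ends '' (T : Set E))).Connected ∧ T.card + 1 = Fintype.card V

end Vale.Agent.P061
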