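import Mathlib

open Finset SimpleGraph

namespace Vale.Agent.P061

open scoped Classical in
lemma sum_degree_le_of_closed {V : Type*} [Fintype V] (F : SimpleGraph V) (hF : F.IsAcyclic)
    (U : Finset V) (hU : U.Nonempty) (hcl : ∀ x ∈ U, ∀ y, F.Adj x y → y ∈ U) :
    ∑ x ∈ U, F.degree x + 2 ≤ 2 * U.card := by
  have hne : Nonempty (U : Set V) := by
    obtain ⟨x, hx⟩ := hU
    exact ⟨⟨x, by simpa using hx⟩⟩
  obtain ⟨T', hT1, -, hT2⟩ := (connected_top (V := (U : Set V))).exists_isTree_le_of_le_of_isAcyclic
    (H := F.induce (U : Set V)) le_top (hF.induce _)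
  have h1 : T'.edgeFinset.card + 1 = Fintype.card (U : Set V) := hT2.card_edgeFinset
  have h2 : (F.induce (U : Set V)).edgeFinset.card ≤ T'.edgeFinset.card :=
    Finset.card_le_card (SimpleGraph.edgeFinset_subset_edgeFinset.mpr hT1)
  have h3 := (F.induce (U : Set V)).sum_degrees_eq_twice_card_edges
  have h4 : ∑ x ∈ U, F.degree x = ∑ x : (U : Set V), (F.induce (U : Set V)).degree x := by
    have h5 : ∀ x : (U : Set V), (F.induce (U : Set V)).degree x = F.degree (x : V) := by
      intro x
      have hsub : F.neighborSet (x : V) ⊆ (U : Set V) := by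
        intro y hy
        have hy' : F.Adj x y := hy
        exact Finset.mem_coe.mpr (hcl x.1 (Finset.mem_coe.mp x.2) y hy')
      have h7 := degree_induce_of_neighborSet_subset (G := F) (s := (U : Set V)) (v := x) hsub
      rw [← h7]
      unfold SimpleGraph.degree
      apply congrArg Finset.card
      ext z
      rw [mem_neighborFinset, mem_neighborFinset]
    simp_rw [h5]
    rw [← Finset.sum_coe_sort U (fun x => F.degree x)]
    rfl
  have h6 : Fintype.card (U : Set V) = U.card := by simp
  rw [h4, h3]
  omega

lemma card_le_edges_add_comps {V : Type*} [Fintype V] [DecidableEq V] (F : SimpleGraph V)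
    [Fintype F.edgeSet] [Fintype F.ConnectedComponent] :
    Fintype.card V ≤ F.edgeFinset.card + Fintype.card F.ConnectedComponent := by
  classical
  -- root of a component
  let rt : F.ConnectedComponent → V := fun c => Quot.out c
  have hrt : ∀ c : F.ConnectedComponent, F.connectedComponentMk (rt c) = c := fun c => Quot.out_eq c
  let R : Finset V := Finset.univ.image rt
  have hR : R.card ≤ Fintype.card F.ConnectedComponent := Finset.card_image_le
  let root : V → V := fun v => rt (F.connectedComponentMk v)
  have hreach : ∀ v, F.Reachable v (root v) := by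
    intro v
    exact (ConnectedComponent.exact (hrt (F.connectedComponentMk v))).symm
  have hpar : ∀ v, v ∉ R → ∃ u, F.Adj v u ∧ F.dist u (root v) < F.dist v (root v) := by
    intro v hv
    have key : ∀ w : V, v ≠ w → F.Reachable v w → ∃ u, F.Adj v u ∧ F.dist u w < F.dist v w := by
      intro w hvw hr
      obtain ⟨p, hp⟩ := hr.exists_walk_length_eq_dist
      cases p with
      | nil => exact absurd rfl hvw
      | cons h q =>
        rename_i u
        refine ⟨u, h, ?_⟩
        have h1 : F.dist u w ≤ q.length := dist_le q
        rw [Walk.length_cons] at hp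
        omega
    apply key _ _ (hreach v)
    intro hvr
    apply hv
    rw [hvr]
    exact Finset.mem_image_of_mem _ (Finset.mem_univ _)
  choose! par hpar1 hpar2 using hpar
  have hinj : Set.InjOn (fun v => s(v, par v)) (↑(Finset.univ \ R) : Set V) := by
    intro v hv u hu huv
    have hv' : v ∉ R := by simpa using hv
    have hu' : u ∉ R := by simpa using hu
    simp only [Sym2.eq_iff] at huv
    rcases huv with ⟨h, -⟩ | ⟨h1, h2⟩
    · exact h
    · exfalso
      have e : root v = root u := by
        have : F.connectedComponentMk v = F.connectedComponentMk u := by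
          apply ConnectedComponent.sound
          rw [← h2]
          exact (hpar1 v hv').reachable
        simp only [root, this]
      have a1 := hpar2 v hv'
      have a2 := hpar2 u hu'
      rw [h2] at a1
      rw [← h1] at a2
      rw [e] at a1
      omega
  have hmaps : Set.MapsTo (fun v => s(v, par v)) (↑(Finset.univ \ R) : Set V)
      (↑F.edgeFinset : Set (Sym2 V)) := by
    intro v hv
    have hv' : v ∉ R := by simpa using hv
    simpa using hpar1 v hv'
  have h1 : (Finset.univ \ R).card ≤ F.edgeFinset.card :=
    Finset.card_le_card_of_injOn _ hmaps hinj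
  have h2 : (Finset.univ \ R).card + R.card = Fintype.card V := by
    rw [Finset.card_sdiff_add_card_eq_card (Finset.subset_univ R)]
    rfl
  omega

end Vale.Agent.P061
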