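import Mathlib

open Finset

namespace Vale.Agent.P061

section
variable {V : Type*} [Fintype V] [DecidableEq V]

def psi {α : Type*} [DecidableEq α] (a : V → V → ℤ) (f : V → α) : ℤ :=
  ∑ x, ∑ y, if f x = f y then a x y else 0

lemma psi_le_of_max (a : V → V → ℤ) (p : V → V) (hp : ∀ q : V → V, psi a q ≤ psi a p)
    {α : Type*} [DecidableEq α] (g : V → α) : psi a g ≤ psi a p := by
  classical
  by_cases hV : Nonempty V
  · let h : V → V := fun x => Function.invFun g (g x)
    have hg : ∀ x, g (h x) = g x := fun x => Function.invFun_eq ⟨x, rfl⟩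
    have hh : ∀ x y, h x = h y ↔ g x = g y := by
      intro x y
      constructor
      · intro e
        rw [← hg x, ← hg y, e]
      · intro e
        simp only [h, e]
    have : psi a g = psi a h := by
      unfold psi
      simp_rw [hh]
    rw [this]
    exact hp h
  · have : IsEmpty V := not_nonempty_iff.mp hV
    simp [psi]

lemma exists_partition (a : V → V → ℤ) (hsymm : ∀ x y, a x y = a y x) :
    ∃ p : V → V,
      (∀ S : Finset V, 0 ≤ ∑ x ∈ S, ∑ y ∈ Sᶜ, if p x = p y then a x y else 0) ∧
      (∀ i j : V, i ≠ j →
        ∑ x ∈ Finset.univ.filter (fun x => p x = i),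
          ∑ y ∈ Finset.univ.filter (fun y => p y = j), a x y ≤ 0) := by
  have : Nonempty (V → V) := ⟨id⟩
  obtain ⟨p, hp⟩ := Finite.exists_max (fun p : V → V => psi a p)
  refine ⟨p, ?_, ?_⟩
  · intro S
    have h1 := psi_le_of_max a p hp (fun x => (p x, decide (x ∈ S)))
    have h2 : psi a p = psi a (fun x => (p x, decide (x ∈ S))) +
        (∑ x, ∑ y, (if x ∈ S ∧ y ∉ S then (if p x = p y then a x y else 0) else 0)) +
        (∑ x, ∑ y, (if x ∉ S ∧ y ∈ S then (if p x = p y then a x y else 0) else 0)) := by
      unfold psi
      rw [← Finset.sum_add_distrib, ← Finset.sum_add_distrib]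
      refine Finset.sum_congr rfl fun x _ => ?_
      rw [← Finset.sum_add_distrib, ← Finset.sum_add_distrib]
      refine Finset.sum_congr rfl fun y _ => ?_
      by_cases hx : x ∈ S <;> by_cases hy : y ∈ S <;> by_cases hxy : p x = p y <;>
        simp [hx, hy, hxy]
    have h3 : (∑ x, ∑ y, (if x ∉ S ∧ y ∈ S then (if p x = p y then a x y else 0) else 0)) =
        (∑ x, ∑ y, (if x ∈ S ∧ y ∉ S then (if p x = p y then a x y else 0) else 0)) := by
      rw [Finset.sum_comm]
      refine Finset.sum_congr rfl fun x _ => Finset.sum_congr rfl fun y _ => ?_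
      rw [hsymm y x]
      simp only [and_comm, eq_comm]
    have h4 : (∑ x, ∑ y, (if x ∈ S ∧ y ∉ S then (if p x = p y then a x y else 0) else 0)) =
        ∑ x ∈ S, ∑ y ∈ Sᶜ, if p x = p y then a x y else 0 := by
      rw [← Finset.sum_filter_add_sum_filter_not Finset.univ (fun x => x ∈ S)]
      have e1 : ∑ x ∈ Finset.univ.filter (fun x => ¬ x ∈ S),
          ∑ y, (if x ∈ S ∧ y ∉ S then (if p x = p y then a x y else 0) else 0) = 0 := by
        apply Finset.sum_eq_zero
        intro x hx
        have hx' : x ∉ S := by simpa using hx
        apply Finset.sum_eq_zero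
        intro y _
        simp [hx']
      rw [e1, add_zero]
      have e2 : Finset.univ.filter (fun x => x ∈ S) = S := by ext; simp
      rw [e2]
      refine Finset.sum_congr rfl fun x hx => ?_
      rw [← Finset.sum_filter_add_sum_filter_not Finset.univ (fun y => y ∈ S)]
      have e3 : ∑ y ∈ Finset.univ.filter (fun y => y ∈ S),
          (if x ∈ S ∧ y ∉ S then (if p x = p y then a x y else 0) else 0) = 0 := by
        apply Finset.sum_eq_zero
        intro y hy
        have hy' : y ∈ S := by simpa using hy
        simp [hy']
      rw [e3, zero_add]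
      have e4 : Finset.univ.filter (fun y => ¬ y ∈ S) = Sᶜ := by ext; simp
      rw [e4]
      refine Finset.sum_congr rfl fun y hy => ?_
      have hy' : y ∉ S := by simpa using hy
      simp [hx, hy']
    rw [h3, h4] at h2
    linarith
  · intro i j hij
    have h1 := psi_le_of_max a p hp (fun x => if p x = j then i else p x)
    have h2 : psi a (fun x => if p x = j then i else p x) = psi a p +
        (∑ x, ∑ y, (if p x = i ∧ p y = j then a x y else 0)) +
        (∑ x, ∑ y, (if p x = j ∧ p y = i then a x y else 0)) := by
      unfold psi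
      rw [← Finset.sum_add_distrib, ← Finset.sum_add_distrib]
      refine Finset.sum_congr rfl fun x _ => ?_
      rw [← Finset.sum_add_distrib, ← Finset.sum_add_distrib]
      refine Finset.sum_congr rfl fun y _ => ?_
      by_cases hx : p x = j
      · by_cases hy : p y = j
        · simp [hx, hy, hij.symm]
        · by_cases hyi : p y = i
          · simp [hx, hyi, hij, hij.symm]
          · simp [hx, hy, hyi, Ne.symm hy, Ne.symm hyi, hij.symm]
      · by_cases hy : p y = j
        · by_cases hxi : p x = i
          · simp [hy, hxi, hij]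
          · simp [hy, hx, hxi]
        · simp [hx, hy]
    have h3 : (∑ x, ∑ y, (if p x = j ∧ p y = i then a x y else 0)) =
        (∑ x, ∑ y, (if p x = i ∧ p y = j then a x y else 0)) := by
      rw [Finset.sum_comm]
      refine Finset.sum_congr rfl fun x _ => Finset.sum_congr rfl fun y _ => ?_
      rw [hsymm y x]
      simp only [and_comm]
    have h4 : (∑ x, ∑ y, (if p x = i ∧ p y = j then a x y else 0)) =
        ∑ x ∈ Finset.univ.filter (fun x => p x = i),
          ∑ y ∈ Finset.univ.filter (fun y => p y = j), a x y := by
      rw [Finset.sum_filter]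
      refine Finset.sum_congr rfl fun x _ => ?_
      by_cases hx : p x = i
      · simp only [hx, true_and, if_true]
        rw [Finset.sum_filter]
      · simp [hx]
    rw [h3, h4] at h2
    linarith

end

end Vale.Agent.P061
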