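import Mathlib
import Vale.Agent.P061.Defs
import Vale.Agent.P061.Forest
import Vale.Agent.P061.Partition

open Finset SimpleGraph

namespace Vale.Agent.P061

section count
variable {V E : Type*} [Fintype V] [DecidableEq V] [Fintype E] [DecidableEq E]

def w (ends : E → Sym2 V) (x y : V) : ℕ := (Finset.univ.filter fun e => ends e = s(x, y)).card

lemma w_symm (ends : E → Sym2 V) (x y : V) : w ends x y = w ends y x := by
  unfold w
  rw [Sym2.eq_swap]

lemma w_self (ends : E → Sym2 V) (hloop : ∀ e, ¬ (ends e).IsDiag) (x : V) : w ends x x = 0 := by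
  unfold w
  rw [Finset.card_eq_zero, Finset.filter_eq_empty_iff]
  intro e _ he
  apply hloop e
  rw [he]
  simp

lemma cut_inter_card (ends : E → Sym2 V) (T : Finset E) (S : Finset V) :
    (T ∩ cut ends S).card =
      ∑ x ∈ S, ∑ y ∈ Sᶜ, (T.filter fun e => ends e = s(x, y)).card := by
  classical
  rw [← Finset.sum_product', ← Finset.card_biUnion]
  · congr 1
    ext e
    simp only [cut, Finset.mem_inter, Finset.mem_filter, Finset.mem_univ, true_and,
      Finset.mem_biUnion, Finset.mem_product, Finset.mem_compl, Prod.exists]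
    constructor
    · rintro ⟨h1, x, y, h2, h3, h4⟩
      exact ⟨x, y, ⟨h2, h3⟩, h1, h4⟩
    · rintro ⟨x, y, ⟨h2, h3⟩, h1, h4⟩
      exact ⟨h1, x, y, h2, h3, h4⟩
  · intro a ha b hb hab
    rw [Function.onFun, Finset.disjoint_left]
    intro e he he'
    simp only [Finset.mem_filter] at he he'
    apply hab
    have h := he.2.symm.trans he'.2
    simp only [Finset.coe_product, Set.mem_prod, Finset.mem_coe, Finset.mem_compl] at ha hb
    rw [Sym2.eq_iff] at h
    rcases h with ⟨h1, h2⟩ | ⟨h1, h2⟩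
    · exact Prod.ext h1 h2
    · exfalso
      rw [h1] at ha
      exact hb.2 ha.1

lemma cut_card (ends : E → Sym2 V) (S : Finset V) :
    (cut ends S).card = ∑ x ∈ S, ∑ y ∈ Sᶜ, w ends x y := by
  have h := cut_inter_card ends Finset.univ S
  rw [Finset.univ_inter] at h
  rw [h]
  rfl

lemma clusters (ends : E → Sym2 V) (hloop : ∀ e, ¬ (ends e).IsDiag) (k μ : ℕ) (hk : 1 ≤ k)
    (hV : 2 ≤ Fintype.card V)
    (hconn : ∀ S : Finset V, S.Nonempty → S ≠ Finset.univ → k ≤ (cut ends S).card)
    (hμ : ∀ x y : V, w ends x y ≤ μ) :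
    ∃ p : V → V,
      (∀ (S : Finset V) (i : V),
        (k : ℤ) * (((S.filter fun x => p x = i).card : ℤ) * ((Sᶜ.filter fun x => p x = i).card : ℤ))
          ≤ 2 * (Fintype.card V : ℤ) *
            ∑ x ∈ S.filter (fun x => p x = i), ∑ y ∈ Sᶜ.filter (fun x => p x = i),
              (w ends x y : ℤ)) ∧
      (∀ v : V, (k : ℤ) ≤ 2 * (μ : ℤ) *
        (((Finset.univ.filter fun x => p x = p v).card : ℤ) - 1)) := by
  classical
  set n : ℤ := (Fintype.card V : ℤ) with hn
  obtain ⟨p, hp1, hp2⟩ := exists_partition (fun x y : V => 2 * n * (w ends x y : ℤ) - (k : ℤ))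
    (fun x y => by rw [w_symm])
  refine ⟨p, ?_, ?_⟩
  · intro S i
    have h := hp1 (S.filter fun x => p x = i)
    have h2 : ∑ x ∈ S.filter (fun x => p x = i), ∑ y ∈ (S.filter fun x => p x = i)ᶜ,
        (if p x = p y then 2 * n * (w ends x y : ℤ) - (k : ℤ) else 0) =
        ∑ x ∈ S.filter (fun x => p x = i), ∑ y ∈ Sᶜ.filter (fun x => p x = i),
          (2 * n * (w ends x y : ℤ) - (k : ℤ)) := by
      refine Finset.sum_congr rfl fun x hx => ?_
      rw [← Finset.sum_filter]
      apply Finset.sum_congr _ fun y _ => rfl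
      ext y
      have hx' := (Finset.mem_filter.mp hx).2
      simp only [Finset.mem_filter, Finset.mem_compl, not_and]
      rw [hx']
      constructor
      · rintro ⟨h3, h4⟩
        exact ⟨fun h5 => h3 h5 h4.symm, h4.symm⟩
      · rintro ⟨h3, h4⟩
        exact ⟨fun h5 => absurd h5 h3, h4.symm⟩
    rw [h2] at h
    have h3 : ∑ x ∈ S.filter (fun x => p x = i), ∑ y ∈ Sᶜ.filter (fun x => p x = i),
          (2 * n * (w ends x y : ℤ) - (k : ℤ)) =
        2 * n * ∑ x ∈ S.filter (fun x => p x = i), ∑ y ∈ Sᶜ.filter (fun x => p x = i),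
              (w ends x y : ℤ) -
          (k : ℤ) * (((S.filter fun x => p x = i).card : ℤ) *
            ((Sᶜ.filter fun x => p x = i).card : ℤ)) := by
      simp_rw [Finset.sum_sub_distrib, ← Finset.mul_sum]
      simp only [Finset.sum_const, nsmul_eq_mul, mul_comm, mul_left_comm, mul_assoc]
    rw [h3] at h
    linarith
  · intro v
    set C : Finset V := Finset.univ.filter fun x => p x = p v with hC
    set m : ℤ := (C.card : ℤ) with hm
    have hmpos : 0 < m := by
      have : v ∈ C := by simp [hC]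
      have : 0 < C.card := Finset.card_pos.mpr ⟨v, this⟩
      rw [hm]
      exact_mod_cast this
    have hmn : m ≤ n := by
      rw [hm, hn]
      exact_mod_cast Finset.card_le_univ C
    -- crossing edges
    have h1 : ∑ x ∈ C, ∑ y ∈ Cᶜ, (2 * n * (w ends x y : ℤ) - (k : ℤ)) ≤ 0 := by
      have h2 : ∑ x ∈ C, ∑ y ∈ Cᶜ, (2 * n * (w ends x y : ℤ) - (k : ℤ)) =
          ∑ j ∈ Finset.univ.filter (fun j => j ≠ p v),
            ∑ x ∈ C, ∑ y ∈ Finset.univ.filter (fun y => p y = j),
              (2 * n * (w ends x y : ℤ) - (k : ℤ)) := by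
        rw [Finset.sum_comm (s := Finset.univ.filter (fun j => j ≠ p v))]
        refine Finset.sum_congr rfl fun x _ => ?_
        rw [← Finset.sum_biUnion]
        · apply Finset.sum_congr _ fun y _ => rfl
          ext y
          simp [hC]
        · intro a _ b _ hab
          rw [Function.onFun, Finset.disjoint_left]
          intro y hy hy'
          simp only [Finset.mem_filter, Finset.mem_univ, true_and] at hy hy'
          exact hab (hy.symm.trans hy')
      rw [h2]
      apply Finset.sum_nonpos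
      intro j hj
      have hj' : j ≠ p v := by simpa using hj
      exact hp2 (p v) j hj'.symm
    have h2 : ∑ x ∈ C, ∑ y ∈ Cᶜ, (2 * n * (w ends x y : ℤ) - (k : ℤ)) =
        2 * n * ∑ x ∈ C, ∑ y ∈ Cᶜ, (w ends x y : ℤ) - (k : ℤ) * (m * (n - m)) := by
      simp_rw [Finset.sum_sub_distrib, ← Finset.mul_sum]
      simp only [Finset.sum_const, nsmul_eq_mul, Finset.card_compl]
      rw [Nat.cast_sub (Finset.card_le_univ C)]
      ring
    -- degrees
    have h3 : (k : ℤ) * m ≤ ∑ x ∈ C, ∑ y, (w ends x y : ℤ) := by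
      have h4 : ∀ x ∈ C, (k : ℤ) ≤ ∑ y, (w ends x y : ℤ) := by
        intro x _
        have h5 := hconn {x} (Finset.singleton_nonempty x) (by
          intro h6
          have h7 : ({x} : Finset V).card = Fintype.card V := by rw [h6]; rfl
          rw [Finset.card_singleton] at h7
          omega)
        rw [cut_card, Finset.sum_singleton] at h5
        have h6 : ∑ y ∈ ({x} : Finset V)ᶜ, w ends x y ≤ ∑ y, w ends x y :=
          Finset.sum_le_sum_of_subset (Finset.subset_univ _)
        calc (k : ℤ) ≤ ((∑ y, w ends x y : ℕ) : ℤ) := by exact_mod_cast h5.trans h6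
          _ = ∑ y, (w ends x y : ℤ) := by push_cast; rfl
      calc (k : ℤ) * m = ∑ x ∈ C, (k : ℤ) := by
            rw [Finset.sum_const, nsmul_eq_mul, mul_comm]
        _ ≤ _ := Finset.sum_le_sum h4
    have h4 : ∑ x ∈ C, ∑ y, (w ends x y : ℤ) =
        ∑ x ∈ C, ∑ y ∈ C, (w ends x y : ℤ) + ∑ x ∈ C, ∑ y ∈ Cᶜ, (w ends x y : ℤ) := by
      rw [← Finset.sum_add_distrib]
      refine Finset.sum_congr rfl fun x _ => ?_
      rw [Finset.sum_add_sum_compl]
    have h5 : ∑ x ∈ C, ∑ y ∈ C, (w ends x y : ℤ) ≤ (μ : ℤ) * (m * (m - 1)) := by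
      have h6 : ∀ x ∈ C, ∑ y ∈ C, (w ends x y : ℤ) ≤ (μ : ℤ) * (m - 1) := by
        intro x hx
        rw [← Finset.sum_erase_add _ _ hx, w_self ends hloop]
        simp only [Nat.cast_zero, add_zero]
        calc ∑ y ∈ C.erase x, (w ends x y : ℤ) ≤ ∑ y ∈ C.erase x, (μ : ℤ) :=
              Finset.sum_le_sum fun y _ => by exact_mod_cast hμ x y
          _ = (μ : ℤ) * (m - 1) := by
              rw [Finset.sum_const, nsmul_eq_mul, Finset.card_erase_of_mem hx,
                Nat.cast_sub (Finset.card_pos.mpr ⟨x, hx⟩), mul_comm]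
              simp [hm]
      calc ∑ x ∈ C, ∑ y ∈ C, (w ends x y : ℤ) ≤ ∑ x ∈ C, (μ : ℤ) * (m - 1) :=
            Finset.sum_le_sum h6
        _ = _ := by rw [Finset.sum_const, nsmul_eq_mul]; ring
    have h6 : 2 * n * ∑ x ∈ C, ∑ y ∈ Cᶜ, (w ends x y : ℤ) ≤ (k : ℤ) * (m * (n - m)) := by
      linarith
    have hkpos : (0 : ℤ) < k := by exact_mod_cast hk
    have hnpos : 0 < n := by linarith
    have h7 : 2 * n * ((k : ℤ) * m) ≤ 2 * n * ((μ : ℤ) * (m * (m - 1))) +
        (k : ℤ) * (m * (n - m)) := by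
      nlinarith
    have h8 : m * ((k : ℤ) * (n + m)) ≤ m * (2 * n * ((μ : ℤ) * (m - 1))) := by
      nlinarith
    have h9 : (k : ℤ) * (n + m) ≤ 2 * n * ((μ : ℤ) * (m - 1)) :=
      le_of_mul_le_mul_left h8 hmpos
    have h10 : n * (k : ℤ) ≤ n * (2 * (μ : ℤ) * (m - 1)) := by nlinarith
    exact le_of_mul_le_mul_left h10 hnpos

end count

end Vale.Agent.P061
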