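import Mathlib
import Vale.Agent.P061.Defs
import Vale.Agent.P061.Forest
import Vale.Agent.P061.Main

open Finset SimpleGraph

namespace Vale.Agent.P061

section tree
variable {V E : Type*} [Fintype V] [DecidableEq V] [Fintype E] [DecidableEq E]

def clusterGraph (ends : E → Sym2 V) (p : V → V) : SimpleGraph V where
  Adj x y := x ≠ y ∧ p x = p y ∧ 0 < w ends x y
  symm := ⟨fun x y h => ⟨h.1.symm, h.2.1.symm, by rw [w_symm]; exact h.2.2⟩⟩
  loopless := ⟨fun x h => h.1 rfl⟩

open scoped Classical in
lemma exists_maximal_forest (H : SimpleGraph V) (D : ℕ) :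
    ∃ F : SimpleGraph V, F ≤ H ∧ F.IsAcyclic ∧ (∀ x, F.degree x ≤ D) ∧
      ∀ x y, H.Adj x y → ¬ F.Reachable x y → F.degree x < D → D ≤ F.degree y := by
  let P : Set (SimpleGraph V) := {F | F ≤ H ∧ F.IsAcyclic ∧ ∀ x, F.degree x ≤ D}
  have hne : P.Nonempty := by
    obtain ⟨B, hB⟩ : ∃ B : SimpleGraph V, B = ⊥ := ⟨_, rfl⟩
    refine ⟨B, hB ▸ bot_le, hB ▸ SimpleGraph.isAcyclic_bot, fun x => ?_⟩
    have h : B.degree x = 0 := by
      rw [SimpleGraph.degree_eq_zero]
      intro y hy
      rw [hB] at hy
      exact hy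
    omega
  obtain ⟨F, hF⟩ := (Set.toFinite P).exists_maximal hne
  obtain ⟨⟨hF1, hF2, hF3⟩, hF4⟩ := hF
  refine ⟨F, hF1, hF2, hF3, ?_⟩
  intro x y hxy hr hx
  by_contra hy
  push Not at hy
  have hxy' : x ≠ y := hxy.ne
  obtain ⟨F', hF'⟩ : ∃ F' : SimpleGraph V, F' = F ⊔ SimpleGraph.edge x y := ⟨_, rfl⟩
  have hadj' : ∀ a b, F'.Adj a b ↔ F.Adj a b ∨ ((a = x ∧ b = y) ∨ (a = y ∧ b = x)) := by
    intro a b
    rw [hF', sup_adj, SimpleGraph.edge_adj]
    constructor
    · tauto
    · rintro (h | h)
      · exact Or.inl h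
      · right
        rcases h with ⟨h1, h2⟩ | ⟨h1, h2⟩
        · exact ⟨Or.inl ⟨h1, h2⟩, by rw [h1, h2]; exact hxy'⟩
        · exact ⟨Or.inr ⟨h1, h2⟩, by rw [h1, h2]; exact hxy'.symm⟩
  have hmem : F' ∈ P := by
    refine ⟨?_, ?_, ?_⟩
    · rw [hF']
      apply sup_le hF1
      rw [SimpleGraph.edge_le_iff]
      right
      exact hxy
    · rw [hF']
      exact hF2.sup_edge_of_not_reachable hr
    · intro z
      by_cases hzx : z = x
      · subst hzx
        have : F'.neighborFinset z ⊆ insert y (F.neighborFinset z) := by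
          intro u hu
          simp only [mem_neighborFinset, hadj', Finset.mem_insert] at hu ⊢
          tauto
        calc F'.degree z ≤ (insert y (F.neighborFinset z)).card :=
              Finset.card_le_card this
          _ ≤ (F.neighborFinset z).card + 1 := Finset.card_insert_le _ _
          _ ≤ D := hx
      · by_cases hzy : z = y
        · subst hzy
          have : F'.neighborFinset z ⊆ insert x (F.neighborFinset z) := by
            intro u hu
            simp only [mem_neighborFinset, hadj', Finset.mem_insert] at hu ⊢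
            tauto
          calc F'.degree z ≤ (insert x (F.neighborFinset z)).card :=
                Finset.card_le_card this
            _ ≤ (F.neighborFinset z).card + 1 := Finset.card_insert_le _ _
            _ ≤ D := hy
        · have : F'.neighborFinset z ⊆ F.neighborFinset z := by
            intro u hu
            simp only [mem_neighborFinset, hadj'] at hu ⊢
            tauto
          calc F'.degree z ≤ (F.neighborFinset z).card :=
                Finset.card_le_card this
            _ ≤ D := hF3 z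
  have hle : F' ≤ F := hF4 hmem (hF' ▸ le_sup_left)
  have hadj : F'.Adj x y := by
    rw [hadj']
    tauto
  exact hr (hle hadj).reachable

lemma class_of_reachable (ends : E → Sym2 V) (p : V → V) (F : SimpleGraph V)
    (hF1 : F ≤ clusterGraph ends p) (v u : V) (h : F.Reachable v u) : p v = p u := by
  obtain ⟨q⟩ := h
  induction q with
  | nil => rfl
  | cons h q ih => exact (hF1 h).2.1.trans ih

open scoped Classical in
lemma component_large (ends : E → Sym2 V) (k μ D : ℕ) (hk : 1 ≤ k)
    (p : V → V) (F : SimpleGraph V) (hF1 : F ≤ clusterGraph ends p) (hF2 : F.IsAcyclic)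
    (hF4 : ∀ x y, (clusterGraph ends p).Adj x y → ¬ F.Reachable x y → F.degree x < D →
      D ≤ F.degree y)
    (hD2 : 2 ≤ D) (hD : 8 * (μ * Fintype.card V) ≤ D * k)
    (hp1 : ∀ x : V, (k : ℤ) * (((Finset.univ.filter fun y => p y = p x).card : ℤ) - 1) ≤
      2 * (Fintype.card V : ℤ) * (μ : ℤ) * ((clusterGraph ends p).degree x : ℤ))
    (hp2 : ∀ v : V, (k : ℤ) ≤ 2 * (μ : ℤ) *
        (((Finset.univ.filter fun x => p x = p v).card : ℤ) - 1)) (v : V) :
    k ^ 2 ≤ 8 * Fintype.card V * μ ^ 2 * (Finset.univ.filter fun u => F.Reachable v u).card := by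
  set n := Fintype.card V with hn
  set K : Finset V := Finset.univ.filter fun u => F.Reachable v u with hK
  set C : Finset V := Finset.univ.filter fun u => p u = p v with hC
  have hreach : ∀ u, F.Reachable v u → p u = p v := fun u hu =>
    (class_of_reachable ends p F hF1 v u hu).symm
  have hvK : v ∈ K := by simp [hK]
  have hx : ∃ x ∈ K, F.degree x < D := by
    by_contra hcon
    push Not at hcon
    have h1 := sum_degree_le_of_closed F hF2 K ⟨v, hvK⟩ (by
      intro x hx y hxy
      simp only [hK, Finset.mem_filter, Finset.mem_univ, true_and] at hx ⊢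
      exact hx.trans hxy.reachable)
    have h2 : ∑ x ∈ K, D ≤ ∑ x ∈ K, F.degree x := Finset.sum_le_sum hcon
    rw [Finset.sum_const, smul_eq_mul] at h2
    nlinarith
  obtain ⟨x, hxK, hxD⟩ := hx
  have hxv : F.Reachable v x := by simpa [hK] using hxK
  have hpx : p x = p v := hreach x hxv
  set L : Finset V := C.filter fun y => D ≤ F.degree y with hL
  have hsub : (clusterGraph ends p).neighborFinset x ⊆ K.erase x ∪ L := by
    intro y hy
    rw [mem_neighborFinset] at hy
    rw [Finset.mem_union, Finset.mem_erase]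
    by_cases hr : F.Reachable x y
    · left
      refine ⟨hy.ne.symm, ?_⟩
      simp only [hK, Finset.mem_filter, Finset.mem_univ, true_and]
      exact hxv.trans hr
    · right
      rw [hL, Finset.mem_filter, hC, Finset.mem_filter]
      refine ⟨⟨Finset.mem_univ _, ?_⟩, hF4 x y hy hr hxD⟩
      rw [← hy.2.1, hpx]
  have hdeg : (clusterGraph ends p).degree x ≤ (K.card - 1) + L.card := by
    calc (clusterGraph ends p).degree x ≤ (K.erase x ∪ L).card := Finset.card_le_card hsub
      _ ≤ (K.erase x).card + L.card := Finset.card_union_le _ _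
      _ = _ := by rw [Finset.card_erase_of_mem hxK]
  have hLsum : D * L.card + 2 ≤ 2 * C.card := by
    have h1 := sum_degree_le_of_closed F hF2 C ⟨v, by simp [hC]⟩ (by
      intro a ha b hab
      have := (hF1 hab).2.1
      simp only [hC, Finset.mem_filter, Finset.mem_univ, true_and] at ha ⊢
      rw [← this, ha])
    have h2 : ∑ a ∈ L, D ≤ ∑ a ∈ L, F.degree a := Finset.sum_le_sum fun a ha =>
      (Finset.mem_filter.mp ha).2
    have h3 : ∑ a ∈ L, F.degree a ≤ ∑ a ∈ C, F.degree a :=
      Finset.sum_le_sum_of_subset (Finset.filter_subset _ _)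
    rw [Finset.sum_const, smul_eq_mul] at h2
    nlinarith
  have h1 := hp1 x
  rw [hpx, ← hC] at h1
  have h2 := hp2 v
  rw [← hC] at h2
  have hKpos : 1 ≤ K.card := Finset.card_pos.mpr ⟨v, hvK⟩
  have hdeg' : ((clusterGraph ends p).degree x : ℤ) ≤ ((K.card : ℤ) - 1) + L.card := by
    have : (((K.card - 1) + L.card : ℕ) : ℤ) = ((K.card : ℤ) - 1) + L.card := by
      push_cast [hKpos]; ring
    rw [← this]; exact_mod_cast hdeg
  have hLsum' : (D : ℤ) * L.card + 2 ≤ 2 * C.card := by exact_mod_cast hLsum
  have hD' : 8 * ((μ : ℤ) * n) ≤ D * k := by exact_mod_cast hD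
  have hk' : (1 : ℤ) ≤ k := by exact_mod_cast hk
  have hLnn : (0 : ℤ) ≤ L.card := by positivity
  have hnn : (0 : ℤ) ≤ (n : ℤ) * μ := by positivity
  have h3 : 2 * (n : ℤ) * μ * ((clusterGraph ends p).degree x : ℤ) ≤
      2 * (n : ℤ) * μ * (((K.card : ℤ) - 1) + L.card) := by
    nlinarith
  have h4 : 8 * ((μ : ℤ) * n) * L.card ≤ (D * k) * L.card := by nlinarith
  have h5 : (k : ℤ) * (D * L.card) ≤ k * (2 * C.card - 2) := by nlinarith
  have h6 : (k : ℤ) * ((C.card : ℤ) - 1) ≤ 4 * n * μ * ((K.card : ℤ) - 1) := by nlinarith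
  have h7 : (k : ℤ) ^ 2 ≤ 2 * μ * (k * ((C.card : ℤ) - 1)) := by nlinarith
  have h8 : (0 : ℤ) ≤ μ := by positivity
  have h9 : (k : ℤ) ^ 2 ≤ 2 * μ * (4 * n * μ * ((K.card : ℤ) - 1)) := by nlinarith
  have h10 : (k : ℤ) ^ 2 ≤ 8 * n * μ ^ 2 * K.card := by nlinarith
  exact_mod_cast h10

open scoped Classical in
lemma comps_bound (F : SimpleGraph V) (a b : ℕ)
    (h : ∀ v : V, a ≤ b * (Finset.univ.filter fun u => F.Reachable v u).card) :
    Fintype.card F.ConnectedComponent * a ≤ b * Fintype.card V := by
  have h1 : Fintype.card V = ∑ c : F.ConnectedComponent,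
      (Finset.univ.filter fun u => F.connectedComponentMk u = c).card := by
    have h2 := Finset.card_eq_sum_card_fiberwise (s := (Finset.univ : Finset V))
      (t := (Finset.univ : Finset F.ConnectedComponent)) (f := F.connectedComponentMk)
      (fun u _ => Finset.mem_coe.mpr (Finset.mem_univ _))
    rw [← h2]
    rfl
  rw [h1, Finset.mul_sum]
  calc Fintype.card F.ConnectedComponent * a = ∑ c : F.ConnectedComponent, a := by simp
    _ ≤ _ := by
      refine Finset.sum_le_sum fun c _ => ?_
      induction c using SimpleGraph.ConnectedComponent.ind with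
      | h v =>
        have h2 := h v
        have h3 : (Finset.univ.filter fun u => F.Reachable v u) =
            (Finset.univ.filter fun u => F.connectedComponentMk u = F.connectedComponentMk v) := by
          ext u
          simp only [Finset.mem_filter, Finset.mem_univ, true_and]
          rw [SimpleGraph.ConnectedComponent.eq]
          exact ⟨fun h => h.symm, fun h => h.symm⟩
        rw [← h3]
        exact h2

lemma exists_copies (ends : E → Sym2 V) (T : SimpleGraph V)
    (hT : ∀ x y, T.Adj x y → 0 < w ends x y) :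
    ∃ g : Sym2 V → Finset E, (∀ s, (g s).card ≤ 1) ∧ (∀ s, ∀ e ∈ g s, ends e = s) ∧
      (∀ s ∈ T.edgeSet, (g s).card = 1) ∧ (∀ s, s ∉ T.edgeSet → g s = ∅) := by
  classical
  have h1 : ∀ s ∈ T.edgeSet, ∃ e, ends e = s := by
    intro s
    induction s with
    | h x y =>
      intro h
      have h2 := hT x y (by simpa using h)
      obtain ⟨e, he⟩ := Finset.card_pos.mp h2
      exact ⟨e, (Finset.mem_filter.mp he).2⟩
  refine ⟨fun s => if h : s ∈ T.edgeSet then {(h1 s h).choose} else ∅, ?_, ?_, ?_, ?_⟩
  · intro s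
    by_cases h : s ∈ T.edgeSet
    · simp [h]
    · simp [h]
  · intro s e he
    by_cases h : s ∈ T.edgeSet
    · simp only [h, dite_true, Finset.mem_singleton] at he
      rw [he]
      exact (h1 s h).choose_spec
    · simp [h] at he
  · intro s h
    simp [h]
  · intro s h
    simp [h]

open scoped Classical in
lemma exists_tree (G F : SimpleGraph V) (hG : G.Connected) (hFG : F ≤ G) (hF : F.IsAcyclic) :
    ∃ T : SimpleGraph V, F ≤ T ∧ T ≤ G ∧ T.Connected ∧ T.edgeFinset.card + 1 = Fintype.card V ∧
      (T.edgeFinset \ F.edgeFinset).card + 1 ≤ Fintype.card F.ConnectedComponent := by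
  obtain ⟨T, h1, h2, h3⟩ := hG.exists_isTree_le_of_le_of_isAcyclic hFG hF
  have h4 : T.edgeFinset.card + 1 = Fintype.card V := h3.card_edgeFinset
  refine ⟨T, h1, h2, h3.connected, h4, ?_⟩
  have h5 := card_le_edges_add_comps F
  have h6 : F.edgeFinset ⊆ T.edgeFinset := SimpleGraph.edgeFinset_subset_edgeFinset.mpr h1
  rw [Finset.card_sdiff_of_subset h6]
  have h7 := Finset.card_le_card h6
  have h8 : 0 < Fintype.card F.ConnectedComponent := by
    obtain ⟨v⟩ := hG.nonempty
    exact Fintype.card_pos_iff.mpr ⟨F.connectedComponentMk v⟩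
  omega

end tree

end Vale.Agent.P061
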