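import Mathlib
import Vale.Agent.P061.Defs
import Vale.Agent.P061.Forest
import Vale.Agent.P061.Main
import Vale.Agent.P061.Tree

open Finset SimpleGraph

namespace Vale.Agent.P061

section final
variable {V E : Type*} [Fintype V] [DecidableEq V] [Fintype E] [DecidableEq E]

lemma underlying_connected (ends : E → Sym2 V) (k : ℕ) (hk : 1 ≤ k)
    (hV : 2 ≤ Fintype.card V)
    (hconn : ∀ S : Finset V, S.Nonempty → S ≠ Finset.univ → k ≤ (cut ends S).card) (c : V) :
    (clusterGraph ends (fun _ => c)).Connected := by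
  classical
  have hne : Nonempty V := Fintype.card_pos_iff.mp (by omega)
  rw [SimpleGraph.connected_iff_exists_forall_reachable]
  refine ⟨c, ?_⟩
  by_contra hcon
  push Not at hcon
  obtain ⟨u, hu⟩ := hcon
  set S : Finset V := Finset.univ.filter fun x => (clusterGraph ends (fun _ => c)).Reachable c x
    with hS
  have h1 := hconn S ⟨c, by simp [hS]⟩ (by
    intro h
    have : u ∈ S := by rw [h]; exact Finset.mem_univ u
    rw [hS, Finset.mem_filter] at this
    exact hu this.2)
  have h2 : 0 < (cut ends S).card := by omega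
  obtain ⟨e, he⟩ := Finset.card_pos.mp h2
  simp only [cut, Finset.mem_filter, Finset.mem_univ, true_and] at he
  obtain ⟨x, y, hx, hy, hxy⟩ := he
  apply hy
  rw [hS, Finset.mem_filter] at hx ⊢
  refine ⟨Finset.mem_univ _, hx.2.trans (SimpleGraph.Adj.reachable ?_)⟩
  refine ⟨?_, rfl, ?_⟩
  · rintro rfl
    apply hy
    rw [hS, Finset.mem_filter]
    exact hx
  · apply Finset.card_pos.mpr
    exact ⟨e, by simp [hxy]⟩

open scoped Classical in
lemma cross_class (ends : E → Sym2 V) (k μ D n : ℕ) (p : V → V) (F : SimpleGraph V)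
    (hF3 : ∀ x, F.degree x ≤ D) (hD : D * k ≤ 9 * (μ * n)) (S : Finset V) (i : V)
    (hp1 : (k : ℤ) * (((S.filter fun x => p x = i).card : ℤ) *
            ((Sᶜ.filter fun x => p x = i).card : ℤ))
          ≤ 2 * (n : ℤ) *
            ∑ x ∈ S.filter (fun x => p x = i), ∑ y ∈ Sᶜ.filter (fun x => p x = i),
              (w ends x y : ℤ))
    (hp2 : ∀ v : V, (k : ℤ) ≤ 2 * (μ : ℤ) *
        (((Finset.univ.filter fun x => p x = p v).card : ℤ) - 1)) :
    k ^ 3 * (∑ x ∈ S.filter (fun x => p x = i), ∑ y ∈ Sᶜ.filter (fun x => p x = i),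
      (if F.Adj x y then 1 else 0)) ≤
      72 * (μ * n) ^ 2 * ∑ x ∈ S.filter (fun x => p x = i), ∑ y ∈ Sᶜ.filter (fun x => p x = i),
        w ends x y := by
  set A : Finset V := S.filter (fun x => p x = i) with hA
  set B : Finset V := Sᶜ.filter (fun x => p x = i) with hB
  set N : ℕ := ∑ x ∈ A, ∑ y ∈ B, (if F.Adj x y then 1 else 0) with hN
  set W : ℕ := ∑ x ∈ A, ∑ y ∈ B, w ends x y with hW
  have h1 : N ≤ D * A.card := by
    rw [hN, mul_comm, ← smul_eq_mul, ← Finset.sum_const]
    refine Finset.sum_le_sum fun x _ => ?_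
    rw [← Finset.sum_filter, Finset.sum_const, smul_eq_mul, mul_one]
    refine (Finset.card_le_card ?_).trans (hF3 x)
    intro y hy
    rw [mem_neighborFinset]
    exact (Finset.mem_filter.mp hy).2
  have h2 : N ≤ D * B.card := by
    rw [hN, Finset.sum_comm, mul_comm, ← smul_eq_mul, ← Finset.sum_const]
    refine Finset.sum_le_sum fun x _ => ?_
    rw [← Finset.sum_filter, Finset.sum_const, smul_eq_mul, mul_one]
    refine (Finset.card_le_card ?_).trans (hF3 x)
    intro y hy
    rw [mem_neighborFinset]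
    exact (Finset.mem_filter.mp hy).2.symm
  have h3 : (k : ℤ) * ((A.card : ℤ) * (B.card : ℤ)) ≤ 2 * (n : ℤ) * (W : ℤ) := by
    rw [hW]
    push_cast
    exact hp1
  have h3' : k * (A.card * B.card) ≤ 2 * n * W := by exact_mod_cast h3
  by_cases hAe : A.card = 0
  · have : N = 0 := by
      have := h1
      rw [hAe] at this
      omega
    rw [this]
    simp
  have h4 : k ≤ 2 * μ * (A.card + B.card) := by
    obtain ⟨v, hv⟩ := Finset.card_pos.mp (Nat.pos_of_ne_zero hAe)
    have h5 := hp2 v
    have h6 : p v = i := (Finset.mem_filter.mp hv).2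
    rw [h6] at h5
    have h7 : (Finset.univ.filter fun x => p x = i).card = A.card + B.card := by
      rw [hA, hB, ← Finset.card_union_of_disjoint, ← Finset.filter_union, Finset.union_compl]
      apply Finset.disjoint_filter_filter
      exact disjoint_compl_right
    rw [h7] at h5
    have h8 : (0 : ℤ) ≤ μ := by positivity
    have : (k : ℤ) ≤ 2 * μ * ((A.card + B.card : ℕ) : ℤ) := by nlinarith
    exact_mod_cast this
  have h5 : N * (A.card + B.card) ≤ 2 * D * (A.card * B.card) := by nlinarith
  have h6 : k * (N * (A.card + B.card)) ≤ 2 * D * (2 * n * W) := by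
    calc k * (N * (A.card + B.card)) ≤ k * (2 * D * (A.card * B.card)) :=
          Nat.mul_le_mul_left _ h5
      _ = 2 * D * (k * (A.card * B.card)) := by ring
      _ ≤ 2 * D * (2 * n * W) := Nat.mul_le_mul_left _ h3'
  calc k ^ 3 * N = k * (k * N) * k := by ring
    _ ≤ k * (k * N) * (2 * μ * (A.card + B.card)) := Nat.mul_le_mul_left _ h4
    _ = 2 * μ * k * (k * (N * (A.card + B.card))) := by ring
    _ ≤ 2 * μ * k * (2 * D * (2 * n * W)) := Nat.mul_le_mul_left _ h6
    _ = 8 * (μ * n) * W * (D * k) := by ring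
    _ ≤ 8 * (μ * n) * W * (9 * (μ * n)) := Nat.mul_le_mul_left _ hD
    _ = 72 * (μ * n) ^ 2 * W := by ring

lemma sum_split (p : V → V) (S : Finset V) (f : V → V → ℕ) (hf : ∀ x y, p x ≠ p y → f x y = 0) :
    ∑ x ∈ S, ∑ y ∈ Sᶜ, f x y =
      ∑ i, ∑ x ∈ S.filter (fun x => p x = i), ∑ y ∈ Sᶜ.filter (fun x => p x = i), f x y := by
  rw [← Finset.sum_fiberwise S p]
  refine Finset.sum_congr rfl fun i _ => ?_
  refine Finset.sum_congr rfl fun x hx => ?_
  rw [Finset.sum_filter]
  refine Finset.sum_congr rfl fun y _ => ?_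
  by_cases h : p y = i
  · rw [if_pos h]
  · rw [if_neg h]
    apply hf
    rw [(Finset.mem_filter.mp hx).2]
    exact fun h' => h h'.symm

lemma sum_split_le (p : V → V) (S : Finset V) (f : V → V → ℕ) :
      ∑ i, ∑ x ∈ S.filter (fun x => p x = i), ∑ y ∈ Sᶜ.filter (fun x => p x = i), f x y ≤
      ∑ x ∈ S, ∑ y ∈ Sᶜ, f x y := by
  rw [← Finset.sum_fiberwise S p]
  refine Finset.sum_le_sum fun i _ => ?_
  refine Finset.sum_le_sum fun x _ => ?_
  exact Finset.sum_le_sum_of_subset (Finset.filter_subset _ _)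

theorem dense_thin (ends : E → Sym2 V) (hloop : ∀ e, ¬ (ends e).IsDiag) (k μ : ℕ) (hk : 1 ≤ k)
    (hV : 2 ≤ Fintype.card V)
    (hconn : ∀ S : Finset V, S.Nonempty → S ≠ Finset.univ → k ≤ (cut ends S).card)
    (hμ : ∀ x y : V, w ends x y ≤ μ) :
    ∃ T : Finset E, IsSpanningTree ends T ∧ ∀ S : Finset V, S.Nonempty → S ≠ Finset.univ →
      k ^ 3 * (T ∩ cut ends S).card ≤ 80 * (μ * Fintype.card V) ^ 2 * (cut ends S).card := by
  classical
  set n := Fintype.card V with hn
  have hne : Nonempty V := Fintype.card_pos_iff.mp (by omega)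
  obtain ⟨c⟩ := hne
  obtain ⟨p, hp1, hp2⟩ := clusters ends hloop k μ hk hV hconn hμ
  set H := clusterGraph ends p with hH
  have hkn : k ≤ μ * n := by
    have h1 := hconn {c} (Finset.singleton_nonempty c) (by
      intro h6
      have h7 : ({c} : Finset V).card = Fintype.card V := by rw [h6]; rfl
      rw [Finset.card_singleton] at h7
      omega)
    rw [cut_card, Finset.sum_singleton] at h1
    calc k ≤ _ := h1
      _ ≤ ∑ y ∈ ({c} : Finset V)ᶜ, μ := Finset.sum_le_sum fun y _ => hμ c y
      _ ≤ ∑ y : V, μ := Finset.sum_le_sum_of_subset (Finset.subset_univ _)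
      _ = μ * n := by rw [Finset.sum_const, smul_eq_mul, mul_comm]; rfl
  obtain ⟨D, hD1, hD2⟩ : ∃ D : ℕ, 8 * (μ * n) ≤ D * k ∧ D * k ≤ 9 * (μ * n) := by
    refine ⟨8 * (μ * n) / k + 1, ?_, ?_⟩
    · have := Nat.lt_div_mul_add (a := 8 * (μ * n)) (b := k) (by omega)
      nlinarith
    · have := Nat.div_mul_le_self (8 * (μ * n)) k
      nlinarith
  have hDge : 2 ≤ D := by
    by_contra hcon
    push Not at hcon
    have : D ≤ 1 := by omega
    nlinarith
  obtain ⟨F, hF1, hF2, hF3, hF4⟩ := exists_maximal_forest H D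
  have hdeg : ∀ x : V, (k : ℤ) * (((Finset.univ.filter fun y => p y = p x).card : ℤ) - 1) ≤
      2 * (Fintype.card V : ℤ) * (μ : ℤ) * ((clusterGraph ends p).degree x : ℤ) := by
    intro x
    have h1 := hp1 {x} (p x)
    have h2 : (({x} : Finset V).filter fun y => p y = p x) = {x} := by
      rw [Finset.filter_singleton, if_pos rfl]
    rw [h2, Finset.card_singleton, Finset.sum_singleton] at h1
    have h3 : ((({x} : Finset V)ᶜ.filter fun y => p y = p x).card : ℤ) =
        ((Finset.univ.filter fun y => p y = p x).card : ℤ) - 1 := by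
      have h4 : (({x} : Finset V)ᶜ.filter fun y => p y = p x) =
          (Finset.univ.filter fun y => p y = p x).erase x := by
        ext y
        simp only [Finset.mem_filter, Finset.mem_compl, Finset.mem_singleton, Finset.mem_erase,
          Finset.mem_univ, true_and]
      rw [h4, Finset.card_erase_of_mem (by simp)]
      rw [Nat.cast_sub]
      · simp
      · apply Finset.card_pos.mpr
        exact ⟨x, by simp⟩
    rw [h3] at h1
    have h5 : ∑ y ∈ (({x} : Finset V)ᶜ.filter fun y => p y = p x), (w ends x y : ℤ) ≤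
        (μ : ℤ) * ((clusterGraph ends p).degree x : ℤ) := by
      calc ∑ y ∈ (({x} : Finset V)ᶜ.filter fun y => p y = p x), (w ends x y : ℤ)
          ≤ ∑ y ∈ (({x} : Finset V)ᶜ.filter fun y => p y = p x),
            (if (clusterGraph ends p).Adj x y then (μ : ℤ) else 0) := by
            refine Finset.sum_le_sum fun y hy => ?_
            by_cases h6 : (clusterGraph ends p).Adj x y
            · rw [if_pos h6]
              exact_mod_cast hμ x y
            · rw [if_neg h6]
              have h7 : w ends x y = 0 := by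
                by_contra h8
                apply h6
                simp only [Finset.mem_filter, Finset.mem_compl, Finset.mem_singleton] at hy
                exact ⟨fun h => hy.1 h.symm, hy.2.symm, Nat.pos_of_ne_zero h8⟩
              rw [h7]
              simp
        _ ≤ ∑ y : V, (if (clusterGraph ends p).Adj x y then (μ : ℤ) else 0) := by
            apply Finset.sum_le_sum_of_subset_of_nonneg (Finset.subset_univ _)
            intro y _ _
            split_ifs <;> positivity
        _ = (μ : ℤ) * ((clusterGraph ends p).degree x : ℤ) := by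
            rw [← Finset.sum_filter, Finset.sum_const, nsmul_eq_mul, mul_comm]
            congr 2
            rw [← SimpleGraph.card_neighborFinset_eq_degree]
            congr 1
            ext y
            simp
    have h6 : (0 : ℤ) ≤ 2 * (Fintype.card V : ℤ) := by positivity
    have h7 := mul_le_mul_of_nonneg_left h5 h6
    simp only [Nat.cast_one, one_mul] at h1
    calc _ ≤ _ := h1
      _ ≤ _ := h7
      _ = _ := by ring
  have hcomp := component_large ends k μ D hk p F hF1 hF2 hF4 hDge hD1 hdeg hp2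
  have hR := comps_bound F (k ^ 2) (8 * n * μ ^ 2) hcomp
  set G := clusterGraph ends (fun _ => c) with hG
  have hGc : G.Connected := underlying_connected ends k hk hV hconn c
  have hFG : F ≤ G := fun x y hxy => ⟨(hF1 hxy).1, rfl, (hF1 hxy).2.2⟩
  obtain ⟨T, hT1, hT2, hT3, hT4, hT5⟩ := exists_tree G F hGc hFG hF2
  obtain ⟨g, hg1, hg2, hg3, hg4⟩ := exists_copies ends T (fun x y h => (hT2 h).2.2)
  have hdisj : ∀ a b : Sym2 V, a ≠ b → Disjoint (g a) (g b) := by
    intro a b hab
    rw [Finset.disjoint_left]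
    intro e ha hb
    exact hab ((hg2 a e ha).symm.trans (hg2 b e hb))
  set Q : Finset E := T.edgeFinset.biUnion g with hQ
  have himage : ends '' (Q : Set E) = T.edgeSet := by
    ext s
    constructor
    · rintro ⟨e, he, rfl⟩
      rw [Finset.mem_coe, hQ, Finset.mem_biUnion] at he
      obtain ⟨s, hs, hes⟩ := he
      rw [hg2 s e hes]
      simpa using hs
    · intro hs
      have h1 := hg3 s hs
      obtain ⟨e, he⟩ := Finset.card_pos.mp (by omega : 0 < (g s).card)
      refine ⟨e, ?_, hg2 s e he⟩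
      rw [Finset.mem_coe, hQ, Finset.mem_biUnion]
      exact ⟨s, by simpa using hs, he⟩
  refine ⟨Q, ⟨?_, ?_⟩, ?_⟩
  · rw [himage, SimpleGraph.fromEdgeSet_edgeSet]
    exact hT3
  · rw [hQ, Finset.card_biUnion (fun a _ b _ hab => hdisj a b hab)]
    rw [Finset.sum_congr rfl (fun s hs => hg3 s (by simpa using hs))]
    rw [Finset.sum_const, smul_eq_mul, mul_one]
    exact hT4
  · intro S hS1 hS2
    have hsub : F.edgeFinset ⊆ T.edgeFinset := SimpleGraph.edgeFinset_subset_edgeFinset.mpr hT1
    have h1 : Q ∩ cut ends S ⊆ (F.edgeFinset.biUnion g ∩ cut ends S) ∪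
        (T.edgeFinset \ F.edgeFinset).biUnion g := by
      intro e he
      rw [Finset.mem_inter, hQ, Finset.mem_biUnion] at he
      obtain ⟨⟨s, hs, hes⟩, hcut⟩ := he
      rw [Finset.mem_union]
      by_cases h : s ∈ F.edgeFinset
      · left
        rw [Finset.mem_inter, Finset.mem_biUnion]
        exact ⟨⟨s, h, hes⟩, hcut⟩
      · right
        rw [Finset.mem_biUnion]
        exact ⟨s, Finset.mem_sdiff.mpr ⟨hs, h⟩, hes⟩
    have h2 : ((T.edgeFinset \ F.edgeFinset).biUnion g).card ≤
        (T.edgeFinset \ F.edgeFinset).card := by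
      calc ((T.edgeFinset \ F.edgeFinset).biUnion g).card
          ≤ ∑ s ∈ T.edgeFinset \ F.edgeFinset, (g s).card := Finset.card_biUnion_le
        _ ≤ ∑ s ∈ T.edgeFinset \ F.edgeFinset, 1 := Finset.sum_le_sum fun s _ => hg1 s
        _ = _ := by simp
    have h3 : (F.edgeFinset.biUnion g ∩ cut ends S).card ≤
        ∑ x ∈ S, ∑ y ∈ Sᶜ, (if F.Adj x y then 1 else 0) := by
      rw [cut_inter_card]
      refine Finset.sum_le_sum fun x _ => Finset.sum_le_sum fun y _ => ?_
      by_cases h : F.Adj x y
      · rw [if_pos h]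
        refine (Finset.card_le_card ?_).trans (hg1 s(x, y))
        intro e he
        rw [Finset.mem_filter, Finset.mem_biUnion] at he
        obtain ⟨⟨s, hs, hes⟩, h5⟩ := he
        rw [hg2 s e hes] at h5
        rw [← h5]
        exact hes
      · rw [if_neg h, Nat.le_zero, Finset.card_eq_zero, Finset.filter_eq_empty_iff]
        intro e he h5
        rw [Finset.mem_biUnion] at he
        obtain ⟨s, hs, hes⟩ := he
        rw [hg2 s e hes] at h5
        rw [h5] at hs
        apply h
        simpa using hs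
    have h4 : k ^ 3 * ∑ x ∈ S, ∑ y ∈ Sᶜ, (if F.Adj x y then 1 else 0) ≤
        72 * (μ * n) ^ 2 * (cut ends S).card := by
      rw [sum_split p S (fun x y => if F.Adj x y then 1 else 0) (by
        intro x y hxy
        rw [if_neg]
        intro h
        exact hxy (hF1 h).2.1), cut_card]
      calc k ^ 3 * ∑ i, ∑ x ∈ S.filter (fun x => p x = i), ∑ y ∈ Sᶜ.filter (fun x => p x = i),
            (if F.Adj x y then 1 else 0)
          = ∑ i, k ^ 3 * ∑ x ∈ S.filter (fun x => p x = i), ∑ y ∈ Sᶜ.filter (fun x => p x = i),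
            (if F.Adj x y then 1 else 0) := by rw [Finset.mul_sum]
        _ ≤ ∑ i, 72 * (μ * n) ^ 2 * ∑ x ∈ S.filter (fun x => p x = i),
            ∑ y ∈ Sᶜ.filter (fun x => p x = i), w ends x y :=
            Finset.sum_le_sum fun i _ => cross_class ends k μ D n p F hF3 hD2 S i (hp1 S i) hp2
        _ = 72 * (μ * n) ^ 2 * ∑ i, ∑ x ∈ S.filter (fun x => p x = i),
            ∑ y ∈ Sᶜ.filter (fun x => p x = i), w ends x y := by rw [← Finset.mul_sum]
        _ ≤ _ := Nat.mul_le_mul_left _ (sum_split_le p S (w ends))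
    have h5 := hconn S hS1 hS2
    have h6 : (Q ∩ cut ends S).card ≤ (∑ x ∈ S, ∑ y ∈ Sᶜ, (if F.Adj x y then 1 else 0)) +
        (T.edgeFinset \ F.edgeFinset).card := by
      calc (Q ∩ cut ends S).card ≤ _ := Finset.card_le_card h1
        _ ≤ _ := Finset.card_union_le _ _
        _ ≤ _ := Nat.add_le_add h3 h2
    have h7 : k ^ 3 * (T.edgeFinset \ F.edgeFinset).card ≤
        8 * (μ * n) ^ 2 * (cut ends S).card := by
      calc k ^ 3 * (T.edgeFinset \ F.edgeFinset).card
          ≤ k ^ 3 * Fintype.card F.ConnectedComponent := Nat.mul_le_mul_left _ (by omega)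
        _ = (Fintype.card F.ConnectedComponent * k ^ 2) * k := by ring
        _ ≤ (8 * n * μ ^ 2 * n) * k := Nat.mul_le_mul_right _ hR
        _ = 8 * (μ * n) ^ 2 * k := by ring
        _ ≤ _ := Nat.mul_le_mul_left _ h5
    calc k ^ 3 * (Q ∩ cut ends S).card ≤ k ^ 3 * ((∑ x ∈ S, ∑ y ∈ Sᶜ,
            (if F.Adj x y then 1 else 0)) + (T.edgeFinset \ F.edgeFinset).card) :=
          Nat.mul_le_mul_left _ h6
      _ = k ^ 3 * (∑ x ∈ S, ∑ y ∈ Sᶜ, (if F.Adj x y then 1 else 0)) +
          k ^ 3 * (T.edgeFinset \ F.edgeFinset).card := by ring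
      _ ≤ 72 * (μ * n) ^ 2 * (cut ends S).card + 8 * (μ * n) ^ 2 * (cut ends S).card :=
          Nat.add_le_add h4 h7
      _ = _ := by ring

end final

end Vale.Agent.P061
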